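import Vale.Agent.P207.H379.Rt
import Vale.Agent.P207.H442.Int
import Vale.Agent.P207.H442.Ten2

/-!
# P207 / H379: the orthogonal group acting on families

`S.g1 B w`, `S.g2 B k`: the action on families with one or two indices. It preserves the tensors
in the infinitesimal form, commutes with the Casimir operator and is an isometry for every
invariant functional; its fixed families are the families in group form.
-/

set_option linter.unusedSectionVars false

noncomputable section

namespace Vale.Agent.P207.H379

open Finset Vale.Agent.P207.H442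

namespace OnAct

variable {n : ℕ} {A : Type*} [CommRing A] [Algebra ℝ A] {C : FrCalc n A} (S : OnAct C)

/-- the transposed action of a matrix on one index -/
theorem rt_transpose_rt (B : OnG n) (T : Fin n → A) (i : Fin n) :
    rt B.1.transpose (fun a => rt B.1 T a) i = T i := by
  simp only [rt, Finset.smul_sum, smul_smul, Matrix.transpose_apply]
  rw [Finset.sum_comm]
  have h1 : ∀ y, ∑ x, (B.1 i x * B.1 y x) • T y = (if i = y then 1 else 0 : ℝ) • T y := fun y => by
    rw [← Finset.sum_smul, orth_right]
  simp only [h1, ite_smul, one_smul, zero_smul, Finset.sum_ite_eq, Finset.mem_univ, if_true]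

theorem rt_rt_transpose (B : OnG n) (T : Fin n → A) (i : Fin n) :
    rt B.1 (fun a => rt B.1.transpose T a) i = T i := by
  simp only [rt, Finset.smul_sum, smul_smul, Matrix.transpose_apply]
  rw [Finset.sum_comm]
  have h1 : ∀ y, ∑ x, (B.1 x i * B.1 x y) • T y = (if i = y then 1 else 0 : ℝ) • T y := fun y => by
    rw [← Finset.sum_smul, orth_left]
  simp only [h1, ite_smul, one_smul, zero_smul, Finset.sum_ite_eq, Finset.mem_univ, if_true]

/-- the action on families with one index -/
def g1 (B : OnG n) (w : Fin n → A) (i : Fin n) : A := rt B.1.transpose (fun a => S.σ B (w a)) i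

/-- the action on families with two indices -/
def g2 (B : OnG n) (k : Fin n → Fin n → A) (i j : Fin n) : A :=
  rt B.1.transpose (fun a => rt B.1.transpose (fun b => S.σ B (k a b)) j) i

theorem g1_apply (B : OnG n) (w : Fin n → A) (i : Fin n) :
    S.g1 B w i = ∑ a, B.1 i a • S.σ B (w a) := rfl

theorem g2_apply (B : OnG n) (k : Fin n → Fin n → A) (i j : Fin n) :
    S.g2 B k i j = ∑ a, B.1 i a • ∑ b, B.1 j b • S.σ B (k a b) := rfl

/-- the fixed families -/
theorem gt1_iff (G : Set (OnG n)) (w : Fin n → A) :
    S.GT1 G w ↔ ∀ B ∈ G, S.g1 B w = w := by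
  constructor
  · intro h B hB
    funext i
    unfold g1
    simp only [h B hB]
    exact rt_transpose_rt B w i
  · intro h B hB i
    have h1 := h B hB
    conv_rhs => rw [← h1]
    unfold g1
    exact (rt_rt_transpose B (fun a => S.σ B (w a)) i).symm

theorem gt2_iff (G : Set (OnG n)) (k : Fin n → Fin n → A) :
    S.GT2 G k ↔ ∀ B ∈ G, S.g2 B k = k := by
  constructor
  · intro h B hB
    funext i j
    unfold g2
    simp only [h B hB]
    have h1 : ∀ a, rt B.1.transpose (fun b => rt B.1 (fun a => rt B.1 (fun b => k a b) b) a) j =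
        rt B.1 (fun a' => k a' j) a := by
      intro a
      rw [rt_rt_comm]
      congr 1
      funext a'
      exact rt_transpose_rt B (fun b => k a' b) j
    simp only [h1]
    exact rt_transpose_rt B (fun a' => k a' j) i
  · intro h B hB i j
    have h1 := h B hB
    conv_rhs => rw [← h1]
    unfold g2
    have h2 : ∀ a, rt B.1 (fun b => rt B.1.transpose (fun a' =>
        rt B.1.transpose (fun b' => S.σ B (k a' b')) b) a) j =
        rt B.1.transpose (fun a' => S.σ B (k a' j)) a := by
      intro a
      rw [rt_rt_comm]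
      congr 1
      funext a'
      exact rt_rt_transpose B (fun b' => S.σ B (k a' b')) j
    simp only [h2]
    exact (rt_rt_transpose B (fun a' => S.σ B (k a' j)) i).symm

/-! ### rotations and the action -/

/-- a rotation after the action -/
theorem V_σ (B : OnG n) (a b : Fin n) (f : A) : C.V a b (S.σ B f) =
    rt B.1.transpose (fun c => rt B.1.transpose (fun d => S.σ B (C.V c d f)) b) a := by
  simp only [S.V]
  have h2 : ∀ c, rt B.1.transpose (fun d => rt B.1 (fun a' =>
        rt B.1 (fun b' => C.V a' b' (S.σ B f)) d) c) b =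
        rt B.1 (fun a' => C.V a' b (S.σ B f)) c := by
    intro c
    rw [rt_rt_comm]
    congr 1
    funext a'
    exact rt_transpose_rt B (fun b' => C.V a' b' (S.σ B f)) b
  simp only [h2]
  exact (rt_transpose_rt B (fun a' => C.V a' b (S.σ B f)) a).symm

theorem H_σ (B : OnG n) (a : Fin n) (f : A) : C.H a (S.σ B f) =
    rt B.1.transpose (fun c => S.σ B (C.H c f)) a := by
  simp only [S.H]
  exact (rt_transpose_rt B (fun a' => C.H a' (S.σ B f)) a).symm

/-- the actions on two different indices commute -/
theorem rt_ac_comm (D : Matrix (Fin n) (Fin n) ℝ) (c d : Fin n) (T : Fin n → Fin n → A)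
    (e j : Fin n) : rt D (fun f => ac c d (fun i => T i f) e) j =
      ac c d (fun i => rt D (fun f => T i f) j) e := by
  unfold rt ac
  simp only [smul_sub, Finset.sum_sub_distrib]
  congr 1
  · split_ifs <;> simp
  · split_ifs <;> simp

/-- the action of a rotation on an index, conjugated -/
theorem rt_ac (B : OnG n) (T : Fin n → A) (a b i : Fin n) :
    rt B.1.transpose (fun c => rt B.1.transpose (fun d => rt B.1.transpose (fun i' =>
      ac c d T i') i) b) a = ac a b (fun j => rt B.1.transpose T j) i := by
  have h1 : ∀ c d, rt B.1.transpose (fun i' => ac c d T i') i =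
      B.1 i d • T c - B.1 i c • T d := by
    intro c d
    simp only [rt, ac, Matrix.transpose_apply, smul_sub, smul_ite, smul_zero,
      Finset.sum_sub_distrib, Finset.sum_ite_eq, Finset.mem_univ, if_true]
  simp only [h1]
  have h2 : ∀ c, rt B.1.transpose (fun d => B.1 i d • T c - B.1 i c • T d) b =
      (if b = i then (1 : ℝ) else 0) • T c - B.1 i c • rt B.1.transpose T b := by
    intro c
    rw [rt_sub, rt_smul]
    congr 1
    simp only [rt, Matrix.transpose_apply, smul_smul]
    rw [← Finset.sum_smul, orth_right]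
  simp only [h2]
  rw [rt_sub, rt_smul]
  unfold ac
  congr 1
  · split_ifs <;> simp
  · simp only [rt, Matrix.transpose_apply, smul_smul]
    rw [← Finset.sum_smul, orth_right]
    split_ifs <;> simp

/-- the action preserves vector fields -/
theorem g1_T1 (B : OnG n) {w : Fin n → A} (hw : C.T1 w) : C.T1 (S.g1 B w) := by
  intro a b i
  unfold g1
  rw [rt_V]
  simp only [S.V_σ, hw _ _ _]
  simp only [ac_map (S.σ B)]
  rw [← rt_ac B (fun c => S.σ B (w c)) a b i]
  have h1 : ∀ (F : Fin n → Fin n → Fin n → A),
      rt B.1.transpose (fun e => rt B.1.transpose (fun c => rt B.1.transpose (fun d =>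
        F c d e) b) a) i =
      rt B.1.transpose (fun c => rt B.1.transpose (fun d => rt B.1.transpose (fun e =>
        F c d e) i) b) a := by
    intro F
    rw [rt_rt_comm]
    congr 1
    funext c
    rw [rt_rt_comm]
  exact h1 fun c d e => ac c d (fun j => S.σ B (w j)) e

/-- the action preserves tensors of rank two -/
theorem g2_T2 (B : OnG n) {k : Fin n → Fin n → A} (hk : C.T2 k) : C.T2 (S.g2 B k) := by
  intro a b i j
  unfold g2
  simp only [rt_V, S.V_σ]
  simp only [hk _ _ _ _, map_add, ac_map (S.σ B)]
  have h1 : ∀ (F : Fin n → Fin n → Fin n → Fin n → A),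
      rt B.1.transpose (fun e => rt B.1.transpose (fun f => rt B.1.transpose (fun c =>
        rt B.1.transpose (fun d => F c d e f) b) a) j) i =
      rt B.1.transpose (fun c => rt B.1.transpose (fun d => rt B.1.transpose (fun e =>
        rt B.1.transpose (fun f => F c d e f) j) i) b) a := by
    intro F
    have e1 : ∀ e, rt B.1.transpose (fun f => rt B.1.transpose (fun c =>
        rt B.1.transpose (fun d => F c d e f) b) a) j =
        rt B.1.transpose (fun c => rt B.1.transpose (fun d => rt B.1.transpose (fun f =>
          F c d e f) j) b) a := by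
      intro e
      rw [rt_rt_comm]
      congr 1
      funext c
      rw [rt_rt_comm]
    simp only [e1]
    rw [rt_rt_comm]
    congr 1
    funext c
    rw [rt_rt_comm]
  rw [h1 fun c d e f => ac c d (fun i => S.σ B (k i f)) e + ac c d (fun j => S.σ B (k e j)) f]
  have h2 : ∀ c d e, rt B.1.transpose (fun f => ac c d (fun i => S.σ B (k i f)) e) j =
      ac c d (fun i => rt B.1.transpose (fun f => S.σ B (k i f)) j) e := by
    intro c d e
    exact rt_ac_comm B.1.transpose c d (fun i f => S.σ B (k i f)) e j
  simp only [rt_add, h2]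
  congr 1
  · exact rt_ac B (fun i => rt B.1.transpose (fun f => S.σ B (k i f)) j) a b i
  · have h3 : rt B.1.transpose (fun c => rt B.1.transpose (fun d => rt B.1.transpose (fun e =>
        rt B.1.transpose (fun f => ac c d (fun j => S.σ B (k e j)) f) j) i) b) a =
        rt B.1.transpose (fun e => rt B.1.transpose (fun c => rt B.1.transpose (fun d =>
        rt B.1.transpose (fun f => ac c d (fun j => S.σ B (k e j)) f) j) b) a) i := by
      symm
      rw [rt_rt_comm]
      congr 1
      funext c
      rw [rt_rt_comm]
    rw [h3]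
    have h4 : ∀ e, rt B.1.transpose (fun c => rt B.1.transpose (fun d =>
        rt B.1.transpose (fun f => ac c d (fun j => S.σ B (k e j)) f) j) b) a =
        ac a b (fun j => rt B.1.transpose (fun f => S.σ B (k e f)) j) j := fun e =>
      rt_ac B (fun j => S.σ B (k e j)) a b j
    simp only [h4]
    exact rt_ac_comm B.1.transpose a b
      (fun j' i' => rt B.1.transpose (fun f => S.σ B (k i' f)) j') j i

/-! ### the Casimir operator -/

theorem g1_cas (B : OnG n) (w : Fin n → A) (i : Fin n) :
    S.g1 B (fun i => C.cas (w i)) i = C.cas (S.g1 B w i) := by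
  unfold g1
  have h1 := rt_map C.casL B.1.transpose (fun a => S.σ B (w a)) i
  simp only [FrCalc.casL_apply] at h1
  rw [h1]
  simp only [S.σ_cas]

theorem g2_cas (B : OnG n) (k : Fin n → Fin n → A) (i j : Fin n) :
    S.g2 B (fun i j => C.cas (k i j)) i j = C.cas (S.g2 B k i j) := by
  unfold g2
  have h1 := rt_map C.casL B.1.transpose
    (fun a => rt B.1.transpose (fun b => S.σ B (k a b)) j) i
  simp only [FrCalc.casL_apply] at h1
  rw [h1]
  congr 1
  funext a
  have h2 := rt_map C.casL B.1.transpose (fun b => S.σ B (k a b)) j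
  simp only [FrCalc.casL_apply] at h2
  rw [h2]
  simp only [S.σ_cas]

/-! ### linearity -/

theorem g1_add (B : OnG n) (w u : Fin n → A) (i : Fin n) :
    S.g1 B (fun i => w i + u i) i = S.g1 B w i + S.g1 B u i := by
  unfold g1
  simp only [map_add, rt_add]

theorem g1_smul (B : OnG n) (c : ℝ) (w : Fin n → A) (i : Fin n) :
    S.g1 B (fun i => c • w i) i = c • S.g1 B w i := by
  unfold g1
  simp only [map_smul, rt_smul]

theorem g2_add (B : OnG n) (w u : Fin n → Fin n → A) (i j : Fin n) :
    S.g2 B (fun i j => w i j + u i j) i j = S.g2 B w i j + S.g2 B u i j := by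
  unfold g2
  simp only [map_add, rt_add]

theorem g2_smul (B : OnG n) (c : ℝ) (w : Fin n → Fin n → A) (i j : Fin n) :
    S.g2 B (fun i j => c • w i j) i j = c • S.g2 B w i j := by
  unfold g2
  simp only [map_smul, rt_smul]

/-- linear version, one index -/
def g1L (B : OnG n) : (Fin n → A) →ₗ[ℝ] (Fin n → A) where
  toFun := S.g1 B
  map_add' w u := funext fun i => S.g1_add B w u i
  map_smul' c w := funext fun i => S.g1_smul B c w i

/-- linear version, two indices -/
def g2L (B : OnG n) : (Fin n → Fin n → A) →ₗ[ℝ] (Fin n → Fin n → A) where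
  toFun := S.g2 B
  map_add' w u := funext fun i => funext fun j => S.g2_add B w u i j
  map_smul' c w := funext fun i => funext fun j => S.g2_smul B c w i j

/-! ### adjoints -/

section Int

variable {I : A →ₗ[ℝ] ℝ} (hI : ∀ B f, I (S.σ B f) = I f)

include hI in
theorem I_σ_mul (B : OnG n) (f h : A) : I (S.σ B f * h) = I (f * S.σ B⁻¹ h) := by
  have h1 := hI B (f * S.σ B⁻¹ h)
  rw [map_mul (S.σ B), S.σ_inv] at h1
  exact h1

include hI in
/-- the adjoint of the action, one index -/
theorem g1_adj (B : OnG n) (w u : Fin n → A) :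
    ∑ i, I (S.g1 B w i * u i) = ∑ i, I (w i * S.g1 B⁻¹ u i) := by
  have hB : ∀ i a, (B⁻¹).1 i a = B.1 a i := fun i a => rfl
  simp only [g1_apply, Finset.sum_mul, Finset.mul_sum, map_sum, smul_mul_assoc, mul_smul_comm,
    map_smul, hB]
  rw [Finset.sum_comm]
  refine Finset.sum_congr rfl fun a _ => Finset.sum_congr rfl fun i _ => ?_
  rw [S.I_σ_mul hI]

include hI in
/-- the adjoint of the action, two indices -/
theorem g2_adj (B : OnG n) (k h : Fin n → Fin n → A) :
    ∑ i, ∑ j, I (S.g2 B k i j * h i j) = ∑ i, ∑ j, I (k i j * S.g2 B⁻¹ h i j) := by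
  have hB : ∀ i a, (B⁻¹).1 i a = B.1 a i := fun i a => rfl
  simp only [g2_apply, Finset.sum_mul, Finset.mul_sum, map_sum, smul_mul_assoc, mul_smul_comm,
    map_smul, hB, Finset.smul_sum]
  calc ∑ i, ∑ j, ∑ a, ∑ b, B.1 i a • B.1 j b • I (S.σ B (k a b) * h i j)
      = ∑ a, ∑ b, ∑ i, ∑ j, B.1 i a • B.1 j b • I (S.σ B (k a b) * h i j) := by
        calc ∑ i, ∑ j, ∑ a, ∑ b, B.1 i a • B.1 j b • I (S.σ B (k a b) * h i j)
            = ∑ i, ∑ a, ∑ j, ∑ b, B.1 i a • B.1 j b • I (S.σ B (k a b) * h i j) :=
              Finset.sum_congr rfl fun i _ => Finset.sum_comm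
          _ = ∑ a, ∑ i, ∑ j, ∑ b, B.1 i a • B.1 j b • I (S.σ B (k a b) * h i j) :=
              Finset.sum_comm
          _ = ∑ a, ∑ i, ∑ b, ∑ j, B.1 i a • B.1 j b • I (S.σ B (k a b) * h i j) :=
              Finset.sum_congr rfl fun a _ => Finset.sum_congr rfl fun i _ => Finset.sum_comm
          _ = _ := Finset.sum_congr rfl fun a _ => Finset.sum_comm
    _ = _ := by
        refine Finset.sum_congr rfl fun a _ => Finset.sum_congr rfl fun b _ =>
          Finset.sum_congr rfl fun i _ => Finset.sum_congr rfl fun j _ => ?_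
        rw [S.I_σ_mul hI]

end Int

end OnAct

end Vale.Agent.P207.H379
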