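import Vale.Agent.P207.H442.Ten

/-!
# P207 / H379: the orthogonal group acting on a frame calculus

`OnAct C`: algebra endomorphisms `σ B` (`B` orthogonal) of the algebra of functions of frames with
the transformation rules of the horizontal derivations, of the rotations and of the curvature.
Families in group form (`GT0`, `GT1`, `GT2`, ...) and families which are equivariant only under a
subgroup.
-/

set_option linter.unusedSectionVars false

noncomputable section

namespace Vale.Agent.P207.H379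

open Finset Vale.Agent.P207.H442

/-- the orthogonal group -/
abbrev OnG (n : ℕ) : Type := Matrix.orthogonalGroup (Fin n) ℝ

section Rt

variable {n : ℕ} {A A' : Type*}

/-- the action of a matrix on one index -/
def rt [AddCommGroup A] [Module ℝ A] (B : Matrix (Fin n) (Fin n) ℝ) (T : Fin n → A) (i : Fin n) :
    A := ∑ a, B a i • T a

theorem orth_left (B : OnG n) (i j : Fin n) : ∑ a, B.1 a i * B.1 a j = if i = j then 1 else 0 := by
  have h1 : B.1.transpose * B.1 = 1 := (Matrix.mem_orthogonalGroup_iff' (Fin n) ℝ).1 B.2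
  have h3 := congrFun (congrFun h1 i) j
  rw [Matrix.mul_apply, Matrix.one_apply] at h3
  exact h3

theorem orth_right (B : OnG n) (i j : Fin n) :
    ∑ a, B.1 i a * B.1 j a = if i = j then 1 else 0 := by
  have h1 : B.1 * B.1.transpose = 1 := (Matrix.mem_orthogonalGroup_iff (Fin n) ℝ).1 B.2
  have h3 := congrFun (congrFun h1 i) j
  rw [Matrix.mul_apply, Matrix.one_apply] at h3
  exact h3

variable [AddCommGroup A] [Module ℝ A] [AddCommGroup A'] [Module ℝ A']

theorem rt_map (L : A →ₗ[ℝ] A') (B : Matrix (Fin n) (Fin n) ℝ) (T : Fin n → A) (i : Fin n) :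
    L (rt B T i) = rt B (fun a => L (T a)) i := by
  simp only [rt, map_sum, map_smul]

theorem rt_add (B : Matrix (Fin n) (Fin n) ℝ) (T U : Fin n → A) (i : Fin n) :
    rt B (fun a => T a + U a) i = rt B T i + rt B U i := by
  simp only [rt, smul_add, Finset.sum_add_distrib]

theorem rt_sub (B : Matrix (Fin n) (Fin n) ℝ) (T U : Fin n → A) (i : Fin n) :
    rt B (fun a => T a - U a) i = rt B T i - rt B U i := by
  simp only [rt, smul_sub, Finset.sum_sub_distrib]

theorem rt_neg (B : Matrix (Fin n) (Fin n) ℝ) (T : Fin n → A) (i : Fin n) :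
    rt B (fun a => - T a) i = - rt B T i := by
  simp only [rt, smul_neg, Finset.sum_neg_distrib]

theorem rt_smul (B : Matrix (Fin n) (Fin n) ℝ) (c : ℝ) (T : Fin n → A) (i : Fin n) :
    rt B (fun a => c • T a) i = c • rt B T i := by
  simp only [rt, Finset.smul_sum]
  exact Finset.sum_congr rfl fun a _ => smul_comm _ _ _

theorem rt_zero (B : Matrix (Fin n) (Fin n) ℝ) (i : Fin n) :
    rt B (fun _ => (0 : A)) i = 0 := by
  simp [rt]

theorem rt_sum {κ : Type*} (s : Finset κ) (B : Matrix (Fin n) (Fin n) ℝ) (T : κ → Fin n → A)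
    (i : Fin n) : rt B (fun a => ∑ k ∈ s, T k a) i = ∑ k ∈ s, rt B (T k) i := by
  simp only [rt, Finset.smul_sum]
  exact Finset.sum_comm

/-- two indices may be rotated in any order -/
theorem rt_rt_comm (B B' : Matrix (Fin n) (Fin n) ℝ) (T : Fin n → Fin n → A) (i j : Fin n) :
    rt B (fun a => rt B' (fun b => T a b) j) i = rt B' (fun b => rt B (fun a => T a b) i) j := by
  simp only [rt, Finset.smul_sum]
  rw [Finset.sum_comm]
  exact Finset.sum_congr rfl fun a _ => Finset.sum_congr rfl fun b _ => smul_comm _ _ _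

/-- the product of two matrices -/
theorem rt_rt_mul (B B' : Matrix (Fin n) (Fin n) ℝ) (T : Fin n → A) (i : Fin n) :
    rt B' (fun b => rt B T b) i = rt (B * B') T i := by
  simp only [rt, Finset.smul_sum, Matrix.mul_apply, Finset.sum_smul, smul_smul]
  rw [Finset.sum_comm]
  exact Finset.sum_congr rfl fun a _ => Finset.sum_congr rfl fun b _ => by rw [mul_comm]

theorem rt_one (T : Fin n → A) (i : Fin n) : rt (1 : Matrix (Fin n) (Fin n) ℝ) T i = T i := by
  simp [rt, Matrix.one_apply]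

/-- contraction of two indices of one family -/
theorem rt_contr (B : OnG n) (T : Fin n → Fin n → A) :
    ∑ i, rt B.1 (fun a => rt B.1 (fun b => T a b) i) i = ∑ i, T i i := by
  simp only [rt, Finset.smul_sum, smul_smul]
  calc ∑ i, ∑ a, ∑ b, (B.1 a i * B.1 b i) • T a b
      = ∑ a, ∑ b, (∑ i, B.1 a i * B.1 b i) • T a b := by
        rw [Finset.sum_comm]
        refine Finset.sum_congr rfl fun a _ => ?_
        rw [Finset.sum_comm]
        exact Finset.sum_congr rfl fun b _ => by rw [Finset.sum_smul]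
    _ = ∑ a, T a a := by
        simp only [orth_right, ite_smul, one_smul, zero_smul, Finset.sum_ite_eq,
          Finset.mem_univ, if_true]

end Rt

section RtMul

variable {n : ℕ} {A : Type*} [CommRing A] [Algebra ℝ A]

theorem rt_mul_left (B : Matrix (Fin n) (Fin n) ℝ) (c : A) (T : Fin n → A) (i : Fin n) :
    rt B (fun a => c * T a) i = c * rt B T i := by
  simp only [rt, Finset.mul_sum, mul_smul_comm]

theorem rt_mul_right (B : Matrix (Fin n) (Fin n) ℝ) (c : A) (T : Fin n → A) (i : Fin n) :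
    rt B (fun a => T a * c) i = rt B T i * c := by
  simp only [rt, Finset.sum_mul, smul_mul_assoc]

/-- contraction of two families -/
theorem rt_mul_contr (B : OnG n) (T U : Fin n → A) :
    ∑ i, rt B.1 T i * rt B.1 U i = ∑ i, T i * U i := by
  have h := rt_contr B (fun a b => T a * U b)
  rw [← h]
  refine Finset.sum_congr rfl fun i _ => ?_
  simp only [rt_mul_left, rt_mul_right]

/-- the Kronecker symbol is invariant -/
theorem rt_delta (B : OnG n) (i j : Fin n) :
    rt B.1 (fun a => rt B.1 (fun b => if a = b then (1 : A) else 0) j) i =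
      if i = j then 1 else 0 := by
  have h1 : ∀ a, rt B.1 (fun b => if a = b then (1 : A) else 0) j = algebraMap ℝ A (B.1 a j) := by
    intro a
    simp only [rt, smul_ite, smul_zero, Finset.sum_ite_eq, Finset.mem_univ, if_true]
    rw [Algebra.algebraMap_eq_smul_one]
  simp only [h1]
  simp only [rt, Algebra.smul_def, ← map_mul]
  rw [← map_sum, orth_left]
  split_ifs <;> simp

end RtMul

/-- the orthogonal group acting on a frame calculus -/
structure OnAct {n : ℕ} {A : Type*} [CommRing A] [Algebra ℝ A] (C : FrCalc n A) where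
  σ : OnG n → A →ₐ[ℝ] A
  one : ∀ f, σ 1 f = f
  mul : ∀ B B' f, σ B (σ B' f) = σ (B * B') f
  H : ∀ B i f, σ B (C.H i f) = rt B.1 (fun a => C.H a (σ B f)) i
  V : ∀ B i j f, σ B (C.V i j f) = rt B.1 (fun a => rt B.1 (fun b => C.V a b (σ B f)) j) i
  R : ∀ B i j k l, σ B (C.R i j k l) = rt B.1 (fun a => rt B.1 (fun b => rt B.1 (fun c =>
    rt B.1 (fun d => C.R a b c d) l) k) j) i

namespace OnAct

variable {n : ℕ} {A : Type*} [CommRing A] [Algebra ℝ A] {C : FrCalc n A} (S : OnAct C)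

theorem rt_σ (B : OnG n) (D : Matrix (Fin n) (Fin n) ℝ) (T : Fin n → A) (i : Fin n) :
    S.σ B (rt D T i) = rt D (fun a => S.σ B (T a)) i := rt_map (S.σ B).toLinearMap D T i

theorem rt_H (m : Fin n) (D : Matrix (Fin n) (Fin n) ℝ) (T : Fin n → A) (i : Fin n) :
    C.H m (rt D T i) = rt D (fun a => C.H m (T a)) i := rt_map (C.H m).toLinearMap D T i

theorem rt_V (p q : Fin n) (D : Matrix (Fin n) (Fin n) ℝ) (T : Fin n → A) (i : Fin n) :
    C.V p q (rt D T i) = rt D (fun a => C.V p q (T a)) i := rt_map (C.V p q).toLinearMap D T i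

/-- the inverse -/
theorem σ_inv (B : OnG n) (f : A) : S.σ B (S.σ B⁻¹ f) = f := by
  rw [S.mul, mul_inv_cancel, S.one]

theorem σ_inv' (B : OnG n) (f : A) : S.σ B⁻¹ (S.σ B f) = f := by
  rw [S.mul, inv_mul_cancel, S.one]

theorem σ_HH (B : OnG n) (i j : Fin n) (f : A) : S.σ B (C.H i (C.H j f)) =
    rt B.1 (fun a => rt B.1 (fun b => C.H a (C.H b (S.σ B f))) j) i := by
  rw [S.H B i]
  congr 1
  funext a
  rw [S.H B j, rt_H]

theorem σ_lap (B : OnG n) (f : A) : S.σ B (C.lap f) = C.lap (S.σ B f) := by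
  unfold FrCalc.lap
  rw [map_sum]
  simp only [σ_HH]
  exact rt_contr B (fun a b => C.H a (C.H b (S.σ B f)))

theorem σ_VV (B : OnG n) (i j k l : Fin n) (f : A) : S.σ B (C.V i j (C.V k l f)) =
    rt B.1 (fun a => rt B.1 (fun b => rt B.1 (fun c => rt B.1 (fun d =>
      C.V a b (C.V c d (S.σ B f))) l) k) j) i := by
  rw [S.V B i j]
  congr 1
  funext a
  congr 1
  funext b
  rw [S.V B k l, rt_V]
  congr 1
  funext c
  rw [rt_V]

/-- contraction of two families with four indices -/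
theorem contr4 (B : OnG n) (T U : Fin n → Fin n → Fin n → Fin n → A) :
    ∑ i, ∑ j, ∑ k, ∑ l,
      rt B.1 (fun a => rt B.1 (fun b => rt B.1 (fun c => rt B.1 (fun d => T a b c d) l) k) j) i *
      rt B.1 (fun a => rt B.1 (fun b => rt B.1 (fun c => rt B.1 (fun d => U a b c d) l) k) j) i =
    ∑ i, ∑ j, ∑ k, ∑ l, T i j k l * U i j k l := by
  -- one index at a time
  have one : ∀ (X Y : Fin n → Fin n → Fin n → Fin n → A),
      ∑ i, ∑ j, ∑ k, ∑ l, rt B.1 (fun a => X a j k l) i * rt B.1 (fun a => Y a j k l) i =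
      ∑ i, ∑ j, ∑ k, ∑ l, X i j k l * Y i j k l := by
    intro X Y
    have e : ∀ Z : Fin n → Fin n → Fin n → Fin n → A,
        ∑ i, ∑ j, ∑ k, ∑ l, Z i j k l = ∑ j, ∑ k, ∑ l, ∑ i, Z i j k l := by
      intro Z
      rw [Finset.sum_comm]
      refine Finset.sum_congr rfl fun j _ => ?_
      rw [Finset.sum_comm]
      refine Finset.sum_congr rfl fun k _ => ?_
      rw [Finset.sum_comm]
    refine (e _).trans (Eq.trans ?_ (e _).symm)
    refine Finset.sum_congr rfl fun j _ => Finset.sum_congr rfl fun k _ =>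
      Finset.sum_congr rfl fun l _ => ?_
    exact rt_mul_contr B (fun a => X a j k l) (fun a => Y a j k l)
  rw [one (fun a j k l => rt B.1 (fun b => rt B.1 (fun c => rt B.1 (fun d => T a b c d) l) k) j)
    (fun a j k l => rt B.1 (fun b => rt B.1 (fun c => rt B.1 (fun d => U a b c d) l) k) j)]
  refine Finset.sum_congr rfl fun i _ => ?_
  have two : ∀ (X Y : Fin n → Fin n → Fin n → A),
      ∑ j, ∑ k, ∑ l, rt B.1 (fun a => X a k l) j * rt B.1 (fun a => Y a k l) j =
      ∑ j, ∑ k, ∑ l, X j k l * Y j k l := by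
    intro X Y
    have e : ∀ Z : Fin n → Fin n → Fin n → A,
        ∑ j, ∑ k, ∑ l, Z j k l = ∑ k, ∑ l, ∑ j, Z j k l := by
      intro Z
      rw [Finset.sum_comm]
      refine Finset.sum_congr rfl fun k _ => ?_
      rw [Finset.sum_comm]
    refine (e _).trans (Eq.trans ?_ (e _).symm)
    refine Finset.sum_congr rfl fun k _ => Finset.sum_congr rfl fun l _ => ?_
    exact rt_mul_contr B (fun a => X a k l) (fun a => Y a k l)
  rw [two (fun b k l => rt B.1 (fun c => rt B.1 (fun d => T i b c d) l) k)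
    (fun b k l => rt B.1 (fun c => rt B.1 (fun d => U i b c d) l) k)]
  refine Finset.sum_congr rfl fun j _ => ?_
  have three : ∀ (X Y : Fin n → Fin n → A),
      ∑ k, ∑ l, rt B.1 (fun a => X a l) k * rt B.1 (fun a => Y a l) k =
      ∑ k, ∑ l, X k l * Y k l := by
    intro X Y
    rw [Finset.sum_comm, Finset.sum_comm (f := fun k l => X k l * Y k l)]
    refine Finset.sum_congr rfl fun l _ => ?_
    exact rt_mul_contr B (fun a => X a l) (fun a => Y a l)
  rw [three (fun c l => rt B.1 (fun d => T i j c d) l) (fun c l => rt B.1 (fun d => U i j c d) l)]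
  exact Finset.sum_congr rfl fun k _ => rt_mul_contr B (fun d => T i j k d) (fun d => U i j k d)

theorem σ_curv (B : OnG n) (f : A) : S.σ B (C.curv f) = C.curv (S.σ B f) := by
  unfold FrCalc.curv
  simp only [map_sum, map_mul, S.R, σ_VV]
  exact contr4 B C.R (fun a b c d => C.V a b (C.V c d (S.σ B f)))

/-- **the Casimir operator commutes with the orthogonal group** -/
theorem σ_cas (B : OnG n) (f : A) : S.σ B (C.cas f) = C.cas (S.σ B f) := by
  unfold FrCalc.cas
  rw [map_sub, map_smul, S.σ_lap, S.σ_curv]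

/-! ### families in group form -/

/-- invariant functions -/
def GT0 (G : Set (OnG n)) (f : A) : Prop := ∀ B ∈ G, S.σ B f = f

/-- families with one index -/
def GT1 (G : Set (OnG n)) (w : Fin n → A) : Prop := ∀ B ∈ G, ∀ i, S.σ B (w i) = rt B.1 w i

/-- families with two indices -/
def GT2 (G : Set (OnG n)) (k : Fin n → Fin n → A) : Prop := ∀ B ∈ G, ∀ i j,
  S.σ B (k i j) = rt B.1 (fun a => rt B.1 (fun b => k a b) j) i

/-- families with three indices -/
def GT3 (G : Set (OnG n)) (k : Fin n → Fin n → Fin n → A) : Prop := ∀ B ∈ G, ∀ i j l,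
  S.σ B (k i j l) = rt B.1 (fun a => rt B.1 (fun b => rt B.1 (fun c => k a b c) l) j) i

/-- families with four indices -/
def GT4 (G : Set (OnG n)) (k : Fin n → Fin n → Fin n → Fin n → A) : Prop := ∀ B ∈ G, ∀ i j l m,
  S.σ B (k i j l m) = rt B.1 (fun a => rt B.1 (fun b => rt B.1 (fun c => rt B.1 (fun d =>
    k a b c d) m) l) j) i

variable {S} {G : Set (OnG n)}

/-! #### linear structure -/

theorem GT0.add {f h : A} (hf : S.GT0 G f) (hh : S.GT0 G h) : S.GT0 G (f + h) := fun B hB => by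
  rw [map_add, hf B hB, hh B hB]

theorem GT0.sub {f h : A} (hf : S.GT0 G f) (hh : S.GT0 G h) : S.GT0 G (f - h) := fun B hB => by
  rw [map_sub, hf B hB, hh B hB]

theorem GT0.neg {f : A} (hf : S.GT0 G f) : S.GT0 G (-f) := fun B hB => by
  rw [map_neg, hf B hB]

theorem GT0.smul {f : A} (c : ℝ) (hf : S.GT0 G f) : S.GT0 G (c • f) := fun B hB => by
  rw [map_smul, hf B hB]

theorem GT0.mul {f h : A} (hf : S.GT0 G f) (hh : S.GT0 G h) : S.GT0 G (f * h) := fun B hB => by
  rw [map_mul, hf B hB, hh B hB]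

theorem GT0.sum {κ : Type*} {s : Finset κ} {f : κ → A} (h : ∀ k ∈ s, S.GT0 G (f k)) :
    S.GT0 G (∑ k ∈ s, f k) := fun B hB => by
  rw [map_sum]
  exact Finset.sum_congr rfl fun k hk => h k hk B hB

theorem GT0.const (c : ℝ) : S.GT0 G (algebraMap ℝ A c) := fun B _ => by
  rw [AlgHom.commutes]

theorem GT0.zero : S.GT0 G (0 : A) := fun _ _ => map_zero _

theorem GT0.one : S.GT0 G (1 : A) := fun _ _ => map_one _

theorem GT1.add {f h : Fin n → A} (hf : S.GT1 G f) (hh : S.GT1 G h) :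
    S.GT1 G (fun i => f i + h i) := fun B hB i => by
  rw [map_add, hf B hB, hh B hB, rt_add]

theorem GT1.sub {f h : Fin n → A} (hf : S.GT1 G f) (hh : S.GT1 G h) :
    S.GT1 G (fun i => f i - h i) := fun B hB i => by
  rw [map_sub, hf B hB, hh B hB, rt_sub]

theorem GT1.neg {f : Fin n → A} (hf : S.GT1 G f) : S.GT1 G (fun i => - f i) := fun B hB i => by
  rw [map_neg, hf B hB, rt_neg]

theorem GT1.smul {f : Fin n → A} (c : ℝ) (hf : S.GT1 G f) : S.GT1 G (fun i => c • f i) :=
  fun B hB i => by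
  rw [map_smul, hf B hB, rt_smul]

theorem GT1.sum {κ : Type*} {s : Finset κ} {f : κ → Fin n → A} (h : ∀ k ∈ s, S.GT1 G (f k)) :
    S.GT1 G (fun i => ∑ k ∈ s, f k i) := fun B hB i => by
  rw [map_sum, rt_sum]
  exact Finset.sum_congr rfl fun k hk => h k hk B hB i

theorem GT1.zero : S.GT1 G (fun _ => (0 : A)) := fun B _ i => by
  rw [map_zero, rt_zero]

theorem GT1.mul {f : A} {w : Fin n → A} (hf : S.GT0 G f) (hw : S.GT1 G w) :
    S.GT1 G (fun i => f * w i) := fun B hB i => by
  rw [map_mul, hf B hB, hw B hB, rt_mul_left]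

theorem GT2.add {f h : Fin n → Fin n → A} (hf : S.GT2 G f) (hh : S.GT2 G h) :
    S.GT2 G (fun i j => f i j + h i j) := fun B hB i j => by
  rw [map_add, hf B hB, hh B hB]
  simp only [rt_add]

theorem GT2.sub {f h : Fin n → Fin n → A} (hf : S.GT2 G f) (hh : S.GT2 G h) :
    S.GT2 G (fun i j => f i j - h i j) := fun B hB i j => by
  rw [map_sub, hf B hB, hh B hB]
  simp only [rt_sub]

theorem GT2.neg {f : Fin n → Fin n → A} (hf : S.GT2 G f) : S.GT2 G (fun i j => - f i j) :=
  fun B hB i j => by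
  rw [map_neg, hf B hB]
  simp only [rt_neg]

theorem GT2.smul {f : Fin n → Fin n → A} (c : ℝ) (hf : S.GT2 G f) :
    S.GT2 G (fun i j => c • f i j) := fun B hB i j => by
  rw [map_smul, hf B hB]
  simp only [rt_smul]

theorem GT2.sum {κ : Type*} {s : Finset κ} {f : κ → Fin n → Fin n → A}
    (h : ∀ k ∈ s, S.GT2 G (f k)) : S.GT2 G (fun i j => ∑ k ∈ s, f k i j) := fun B hB i j => by
  rw [map_sum]
  simp only [rt_sum]
  exact Finset.sum_congr rfl fun k hk => h k hk B hB i j

theorem GT2.mul {f : A} {w : Fin n → Fin n → A} (hf : S.GT0 G f) (hw : S.GT2 G w) :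
    S.GT2 G (fun i j => f * w i j) := fun B hB i j => by
  rw [map_mul, hf B hB, hw B hB]
  simp only [rt_mul_left]

theorem GT2.swap {k : Fin n → Fin n → A} (hk : S.GT2 G k) : S.GT2 G (fun i j => k j i) :=
  fun B hB i j => by
  rw [hk B hB, rt_rt_comm]

theorem GT1.tensor {v w : Fin n → A} (hv : S.GT1 G v) (hw : S.GT1 G w) :
    S.GT2 G (fun i j => v i * w j) := fun B hB i j => by
  rw [map_mul, hv B hB, hw B hB]
  simp only [rt_mul_left, rt_mul_right]

theorem GT2.delta : S.GT2 G (fun i j => if i = j then (1 : A) else 0) := fun B _ i j => by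
  rw [rt_delta]
  change S.σ B (if i = j then (1 : A) else 0) = _
  by_cases h : i = j
  · rw [if_pos h, map_one]
  · rw [if_neg h, map_zero]

/-! #### derivations -/

theorem GT0.H {f : A} (hf : S.GT0 G f) : S.GT1 G (fun i => C.H i f) := fun B hB i => by
  rw [S.H, hf B hB]

theorem GT1.H {w : Fin n → A} (hw : S.GT1 G w) : S.GT2 G (fun i j => C.H i (w j)) :=
  fun B hB i j => by
  rw [S.H, hw B hB]
  simp only [rt_H]

theorem GT2.H {k : Fin n → Fin n → A} (hk : S.GT2 G k) : S.GT3 G (fun i j l => C.H i (k j l)) :=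
  fun B hB i j l => by
  rw [S.H, hk B hB]
  simp only [rt_H]

theorem GT3.H {k : Fin n → Fin n → Fin n → A} (hk : S.GT3 G k) :
    S.GT4 G (fun i j l m => C.H i (k j l m)) := fun B hB i j l m => by
  rw [S.H, hk B hB]
  simp only [rt_H]

theorem GT0.V {f : A} (hf : S.GT0 G f) : S.GT2 G (fun i j => C.V i j f) := fun B hB i j => by
  rw [S.V, hf B hB]

theorem GT1.V {w : Fin n → A} (hw : S.GT1 G w) : S.GT3 G (fun i j l => C.V i j (w l)) :=
  fun B hB i j l => by
  rw [S.V, hw B hB]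
  simp only [rt_V]

theorem GT2.V {k : Fin n → Fin n → A} (hk : S.GT2 G k) :
    S.GT4 G (fun i j l m => C.V i j (k l m)) := fun B hB i j l m => by
  rw [S.V, hk B hB]
  simp only [rt_V]

theorem GT4.R : S.GT4 G C.R := fun B _ i j k l => S.R B i j k l

/-! #### contractions -/

theorem GT2.contr {k : Fin n → Fin n → A} (hk : S.GT2 G k) : S.GT0 G (∑ i, k i i) :=
  fun B hB => by
  rw [map_sum]
  rw [Finset.sum_congr rfl fun i _ => hk B hB i i]
  exact rt_contr B k

theorem GT3.contr12 {k : Fin n → Fin n → Fin n → A} (hk : S.GT3 G k) :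
    S.GT1 G (fun l => ∑ i, k i i l) := fun B hB l => by
  rw [map_sum]
  rw [Finset.sum_congr rfl fun i _ => hk B hB i i l]
  rw [rt_contr B (fun a b => rt B.1 (fun c => k a b c) l), rt_sum]

theorem GT3.contr13 {k : Fin n → Fin n → Fin n → A} (hk : S.GT3 G k) :
    S.GT1 G (fun l => ∑ i, k i l i) := fun B hB l => by
  rw [map_sum]
  rw [Finset.sum_congr rfl fun i _ => hk B hB i l i]
  have h1 : ∀ i, rt B.1 (fun a => rt B.1 (fun b => rt B.1 (fun c => k a b c) i) l) i =
      rt B.1 (fun b => rt B.1 (fun a => rt B.1 (fun c => k a b c) i) i) l := fun i =>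
    rt_rt_comm B.1 B.1 (fun a b => rt B.1 (fun c => k a b c) i) i l
  simp only [h1]
  rw [← rt_sum]
  congr 1
  funext b
  exact rt_contr B (fun a c => k a b c)

theorem GT3.contr23 {k : Fin n → Fin n → Fin n → A} (hk : S.GT3 G k) :
    S.GT1 G (fun l => ∑ i, k l i i) := fun B hB l => by
  rw [map_sum]
  rw [Finset.sum_congr rfl fun i _ => hk B hB l i i]
  rw [← rt_sum]
  congr 1
  funext a
  exact rt_contr B (fun b c => k a b c)

/-- `∑_j k_ij w_j` -/
theorem GT2.apply {k : Fin n → Fin n → A} {w : Fin n → A} (hk : S.GT2 G k) (hw : S.GT1 G w) :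
    S.GT1 G (fun i => ∑ j, k i j * w j) := fun B hB i => by
  rw [map_sum]
  have h1 : ∀ j, S.σ B (k i j * w j) =
      rt B.1 (fun a => rt B.1 (fun b => k a b) j) i * rt B.1 w j := fun j => by
    rw [map_mul, hk B hB, hw B hB]
  simp only [h1]
  rw [rt_sum]
  have h2 : ∀ j, rt B.1 (fun a => rt B.1 (fun b => k a b) j) i * rt B.1 w j =
      rt B.1 (fun b => rt B.1 (fun a => k a b) i) j * rt B.1 w j := fun j => by
    rw [rt_rt_comm]
  simp only [h2]
  rw [rt_mul_contr B (fun b => rt B.1 (fun a => k a b) i) w]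
  exact Finset.sum_congr rfl fun j _ => by rw [rt_mul_right]

/-- `∑_i v_i w_i` -/
theorem GT1.dot {v w : Fin n → A} (hv : S.GT1 G v) (hw : S.GT1 G w) :
    S.GT0 G (∑ i, v i * w i) := (hv.tensor hw).contr

/-- `∑_j k_ij h_jl` -/
theorem GT2.comp {k h : Fin n → Fin n → A} (hk : S.GT2 G k) (hh : S.GT2 G h) :
    S.GT2 G (fun i l => ∑ j, k i j * h j l) := fun B hB i l => by
  rw [map_sum]
  have h1 : ∀ j, S.σ B (k i j * h j l) =
      rt B.1 (fun b => rt B.1 (fun a => k a b) i) j *
        rt B.1 (fun a => rt B.1 (fun b => h a b) l) j := fun j => by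
    rw [map_mul, hk B hB, hh B hB, rt_rt_comm]
  simp only [h1]
  rw [rt_mul_contr B (fun b => rt B.1 (fun a => k a b) i) (fun a => rt B.1 (fun b => h a b) l)]
  simp only [rt_sum, rt_mul_left, rt_mul_right]

/-! #### operators which commute with the group -/

variable (S) in
/-- operators which commute with the group -/
def Comm (P : A →ₗ[ℝ] A) : Prop := ∀ B f, S.σ B (P f) = P (S.σ B f)

theorem comm_cas : S.Comm C.casL := fun B f => S.σ_cas B f

theorem Comm.comp {P Q : A →ₗ[ℝ] A} (hP : S.Comm P) (hQ : S.Comm Q) : S.Comm (P ∘ₗ Q) :=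
  fun B f => by
  rw [LinearMap.comp_apply, hP, hQ]
  rfl

theorem GT0.op {P : A →ₗ[ℝ] A} (hP : S.Comm P) {f : A} (hf : S.GT0 G f) : S.GT0 G (P f) :=
  fun B hB => by
  rw [hP, hf B hB]

theorem GT1.op {P : A →ₗ[ℝ] A} (hP : S.Comm P) {w : Fin n → A} (hw : S.GT1 G w) :
    S.GT1 G (fun i => P (w i)) := fun B hB i => by
  rw [hP, hw B hB, rt_map]

theorem GT2.op {P : A →ₗ[ℝ] A} (hP : S.Comm P) {k : Fin n → Fin n → A} (hk : S.GT2 G k) :
    S.GT2 G (fun i j => P (k i j)) := fun B hB i j => by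
  rw [hP, hk B hB, rt_map]
  congr 1
  funext a
  rw [rt_map]

theorem GT0.cas {f : A} (hf : S.GT0 G f) : S.GT0 G (C.cas f) := hf.op comm_cas

theorem GT1.cas {w : Fin n → A} (hw : S.GT1 G w) : S.GT1 G (fun i => C.cas (w i)) :=
  hw.op comm_cas

theorem GT2.cas {k : Fin n → Fin n → A} (hk : S.GT2 G k) : S.GT2 G (fun i j => C.cas (k i j)) :=
  hk.op comm_cas

/-! ### subsets of the stabiliser of the first vector -/

/-- the matrices of `G` fix the first vector -/
def Fix0 [NeZero n] (G : Set (OnG n)) : Prop := ∀ B ∈ G, ∀ a, B.1 a 0 = if a = 0 then 1 else 0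

section Fix

variable [NeZero n]

theorem Fix0.row (hG : Fix0 G) {B : OnG n} (hB : B ∈ G) (a : Fin n) :
    B.1 0 a = if a = 0 then 1 else 0 := by
  have h1 := orth_left B 0 a
  simp only [hG B hB, ite_mul, one_mul, zero_mul, Finset.sum_ite_eq', Finset.mem_univ,
    if_true] at h1
  rw [h1]
  simp only [eq_comm]

theorem Fix0.rt (hG : Fix0 G) {B : OnG n} (hB : B ∈ G) (T : Fin n → A) :
    H379.rt B.1 T 0 = T 0 := by
  simp only [H379.rt, hG B hB, ite_smul, one_smul, zero_smul, Finset.sum_ite_eq',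
    Finset.mem_univ, if_true]

theorem GT1.at0 (hG : Fix0 G) {w : Fin n → A} (hw : S.GT1 G w) : S.GT0 G (w 0) :=
  fun B hB => by
  rw [hw B hB, hG.rt hB]

theorem GT2.at0 (hG : Fix0 G) {k : Fin n → Fin n → A} (hk : S.GT2 G k) :
    S.GT1 G (fun j => k 0 j) := fun B hB j => by
  rw [hk B hB, hG.rt hB]

theorem GT2.at0' (hG : Fix0 G) {k : Fin n → Fin n → A} (hk : S.GT2 G k) :
    S.GT1 G (fun j => k j 0) := hk.swap.at0 hG

theorem GT3.at0_1 (hG : Fix0 G) {k : Fin n → Fin n → Fin n → A} (hk : S.GT3 G k) :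
    S.GT2 G (fun j l => k 0 j l) := fun B hB j l => by
  rw [hk B hB, hG.rt hB]

theorem GT3.at0_2 (hG : Fix0 G) {k : Fin n → Fin n → Fin n → A} (hk : S.GT3 G k) :
    S.GT2 G (fun j l => k j 0 l) := fun B hB j l => by
  rw [hk B hB]
  congr 1
  funext a
  rw [hG.rt hB]

theorem GT3.at0_3 (hG : Fix0 G) {k : Fin n → Fin n → Fin n → A} (hk : S.GT3 G k) :
    S.GT2 G (fun j l => k j l 0) := fun B hB j l => by
  rw [hk B hB]
  congr 1
  funext a
  congr 1
  funext b
  rw [hG.rt hB]

theorem GT4.at0_1 (hG : Fix0 G) {k : Fin n → Fin n → Fin n → Fin n → A} (hk : S.GT4 G k) :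
    S.GT3 G (fun j l m => k 0 j l m) := fun B hB j l m => by
  rw [hk B hB, hG.rt hB]

theorem GT4.at0_2 (hG : Fix0 G) {k : Fin n → Fin n → Fin n → Fin n → A} (hk : S.GT4 G k) :
    S.GT3 G (fun j l m => k j 0 l m) := fun B hB j l m => by
  rw [hk B hB]
  congr 1
  funext a
  rw [hG.rt hB]

theorem GT4.at0_3 (hG : Fix0 G) {k : Fin n → Fin n → Fin n → Fin n → A} (hk : S.GT4 G k) :
    S.GT3 G (fun j l m => k j l 0 m) := fun B hB j l m => by
  rw [hk B hB]
  congr 1
  funext a
  congr 1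
  funext b
  rw [hG.rt hB]

theorem GT4.at0_4 (hG : Fix0 G) {k : Fin n → Fin n → Fin n → Fin n → A} (hk : S.GT4 G k) :
    S.GT3 G (fun j l m => k j l m 0) := fun B hB j l m => by
  rw [hk B hB]
  congr 1
  funext a
  congr 1
  funext b
  congr 1
  funext c
  rw [hG.rt hB]

/-- the components of the first vector -/
theorem GT1.e0 (hG : Fix0 G) : S.GT1 G (fun i => if i = 0 then (1 : A) else 0) := by
  have h := (GT2.delta (S := S) (G := G)).at0' hG
  exact h

/-- the derivation along the first vector -/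
theorem GT0.X (hG : Fix0 G) {f : A} (hf : S.GT0 G f) : S.GT0 G (C.H 0 f) := hf.H.at0 hG

theorem GT1.X (hG : Fix0 G) {w : Fin n → A} (hw : S.GT1 G w) :
    S.GT1 G (fun j => C.H 0 (w j)) := hw.H.at0 hG

theorem GT2.X (hG : Fix0 G) {k : Fin n → Fin n → A} (hk : S.GT2 G k) :
    S.GT2 G (fun j l => C.H 0 (k j l)) := hk.H.at0_1 hG

/-- the vertical gradient -/
theorem GT0.V0 (hG : Fix0 G) {f : A} (hf : S.GT0 G f) : S.GT1 G (fun i => C.V 0 i f) :=
  hf.V.at0 hG

theorem GT1.V0 (hG : Fix0 G) {w : Fin n → A} (hw : S.GT1 G w) :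
    S.GT2 G (fun i j => C.V 0 i (w j)) := hw.V.at0_1 hG

theorem GT2.V0 (hG : Fix0 G) {k : Fin n → Fin n → A} (hk : S.GT2 G k) :
    S.GT3 G (fun i j l => C.V 0 i (k j l)) := hk.V.at0_1 hG

/-- the Jacobi operator -/
theorem GT2.K (hG : Fix0 G) : S.GT2 G (fun i j => C.R i 0 0 j) :=
  ((GT4.R (S := S) (G := G)).at0_2 hG).at0_2 hG

variable (S) in
/-- admissible fields: equivariant families orthogonal to the first vector -/
def AdmG (G : Set (OnG n)) (y : Fin n → A) : Prop := y 0 = 0 ∧ S.GT1 G y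

theorem AdmG.add {y z : Fin n → A} (hy : S.AdmG G y) (hz : S.AdmG G z) :
    S.AdmG G (fun i => y i + z i) := ⟨by beta_reduce; rw [hy.1, hz.1, add_zero], hy.2.add hz.2⟩

theorem AdmG.sub {y z : Fin n → A} (hy : S.AdmG G y) (hz : S.AdmG G z) :
    S.AdmG G (fun i => y i - z i) := ⟨by beta_reduce; rw [hy.1, hz.1, sub_zero], hy.2.sub hz.2⟩

theorem AdmG.neg {y : Fin n → A} (hy : S.AdmG G y) : S.AdmG G (fun i => - y i) :=
  ⟨by beta_reduce; rw [hy.1, neg_zero], hy.2.neg⟩

theorem AdmG.smul {y : Fin n → A} (c : ℝ) (hy : S.AdmG G y) : S.AdmG G (fun i => c • y i) :=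
  ⟨by beta_reduce; rw [hy.1, smul_zero], hy.2.smul c⟩

theorem AdmG.sum {κ : Type*} {s : Finset κ} {f : κ → Fin n → A} (h : ∀ k ∈ s, S.AdmG G (f k)) :
    S.AdmG G (fun i => ∑ k ∈ s, f k i) :=
  ⟨Finset.sum_eq_zero fun k hk => (h k hk).1, GT1.sum fun k hk => (h k hk).2⟩

theorem AdmG.zero : S.AdmG G (fun _ => (0 : A)) := ⟨rfl, GT1.zero⟩

theorem AdmG.mul {f : A} {y : Fin n → A} (hf : S.GT0 G f) (hy : S.AdmG G y) :
    S.AdmG G (fun i => f * y i) := ⟨by beta_reduce; rw [hy.1, mul_zero], hy.2.mul hf⟩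

theorem AdmG.X (hG : Fix0 G) {y : Fin n → A} (hy : S.AdmG G y) :
    S.AdmG G (fun i => C.H 0 (y i)) := ⟨by beta_reduce; rw [hy.1, map_zero], hy.2.X hG⟩

theorem AdmG.op {P : A →ₗ[ℝ] A} (hP : S.Comm P) {y : Fin n → A} (hy : S.AdmG G y) :
    S.AdmG G (fun i => P (y i)) := ⟨by beta_reduce; rw [hy.1, map_zero], hy.2.op hP⟩

/-- the component orthogonal to the first vector -/
theorem GT1.perp (hG : Fix0 G) {w : Fin n → A} (hw : S.GT1 G w) :
    S.AdmG G (fun i => if i = 0 then 0 else w i) := by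
  have h1 : (fun i => if i = 0 then 0 else w i) =
      fun i => w i - w 0 * (if i = 0 then (1 : A) else 0) := by
    funext i
    by_cases h : i = 0
    · subst h; simp
    · simp [h]
  refine ⟨by simp, ?_⟩
  rw [h1]
  exact hw.sub ((GT1.e0 hG).mul (hw.at0 hG))

/-- a matrix of functions which kills the first vector, applied to a family -/
theorem GT2.apply_adm {k : Fin n → Fin n → A} {w : Fin n → A} (hk : S.GT2 G k)
    (hk0 : ∀ j, k 0 j = 0) (hw : S.GT1 G w) : S.AdmG G (fun i => ∑ j, k i j * w j) :=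
  ⟨Finset.sum_eq_zero fun j _ => by rw [hk0, zero_mul], hk.apply hw⟩

/-- the vertical gradient is admissible -/
theorem GT0.V0_adm (hG : Fix0 G) {f : A} (hf : S.GT0 G f) : S.AdmG G (fun i => C.V 0 i f) :=
  ⟨FrCalc.V_self 0 f, hf.V0 hG⟩

/-- the horizontal gradient orthogonal to the first vector is admissible -/
theorem GT0.H_adm (hG : Fix0 G) {f : A} (hf : S.GT0 G f) :
    S.AdmG G (fun i => if i = 0 then 0 else C.H i f) := hf.H.perp hG

/-- the Jacobi operator applied to a family -/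
theorem GT1.K_adm (hG : Fix0 G) {w : Fin n → A} (hw : S.GT1 G w) :
    S.AdmG G (fun i => ∑ j, C.R i 0 0 j * w j) :=
  (GT2.K hG).apply_adm (fun j => FrCalc.R_self 0 0 j) hw

end Fix

end OnAct

end Vale.Agent.P207.H379
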